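import Crest.Agent.R129S.CStar

/-!
# R129S: Markov bound for the upper spectral projection
-/

set_option autoImplicit false
set_option linter.unusedSectionVars false

noncomputable section

namespace Crest.Agent.R129S

open scoped InnerProductSpace ComplexConjugate
open ContinuousLinearMap Crest.OperatorAlgebra

variable {E F : Type} [NormedAddCommGroup E] [InnerProductSpace ℂ E]
  [NormedAddCommGroup F] [InnerProductSpace ℂ F] [CompleteSpace E] [CompleteSpace F]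
  {S : E →L[ℂ] E} {m r : ℝ}

theorem re_inner_algebraMap (c : ℝ) (ξ : E) :
    (⟪ξ, (algebraMap ℝ (E →L[ℂ] E) c) ξ⟫_ℂ).re = c * ‖ξ‖ ^ 2 := by
  rw [Algebra.algebraMap_eq_smul_one, smul_apply, one_apply_eq_self, ← Complex.coe_smul,
    inner_smul_right, Complex.re_ofReal_mul, re_inner_self]

theorem Gap.up_ne_zero' (h : Gap S m r) (hS : IsSelfAdjoint S) (hr : 0 < r) {ξ : E}
    (hξ : (m - r) * ‖ξ‖ ^ 2 < (⟪ξ, S ξ⟫_ℂ).re) : up S m ≠ 0 := by
  intro h0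
  have hc := h.continuousOn hS hr
  have h1 : ∀ x ∈ _root_.spectrum ℝ S, x ≤ m - r := by
    intro x hx
    have h4 := h.spectrum hS hr.le hx
    by_cases hlt : m ≤ x
    · exfalso
      have h2 : stp m x ∈ _root_.spectrum ℝ (up S m) := by
        unfold up
        rw [cfc_map_spectrum _ S]
        exact ⟨x, hx, rfl⟩
      rw [h0] at h2
      have h3 : stp m x = 1 := if_pos hlt
      rw [h3, spectrum.mem_iff] at h2
      exact h2 (by simp)
    · rw [abs_of_nonpos (by linarith)] at h4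
      linarith
  have h2 : S ≤ algebraMap ℝ _ (m - r) := le_algebraMap_of_spectrum_le h1 hS
  have h3 := re_nonneg (sub_nonneg.2 h2) ξ
  rw [sub_apply, inner_sub_right, Complex.sub_re, re_inner_algebraMap] at h3
  linarith

theorem Gap.markov (h : Gap S m r) (hS : IsSelfAdjoint S) (hr : 0 < r) {a : ℝ}
    (ha : ∀ ξ, a * ‖ξ‖ ^ 2 ≤ (⟪ξ, S ξ⟫_ℂ).re) (ξ : E) :
    (m - a) * ‖up S m ξ‖ ^ 2 ≤ (⟪ξ, S ξ⟫_ℂ).re - a * ‖ξ‖ ^ 2 := by
  have hcont := h.continuousOn hS hr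
  have hsa : IsSelfAdjoint (S - algebraMap ℝ _ a) :=
    hS.sub (IsSelfAdjoint.algebraMap _ (IsSelfAdjoint.all a))
  have e1 : cfc (fun x : ℝ => x - a) S = S - algebraMap ℝ _ a := by
    rw [cfc_sub _ _ S, cfc_const _ S, cfc_id' ℝ S]
  have hp : 0 ≤ cfc (fun x : ℝ => x - a) S := by
    rw [e1]
    refine nonneg_of_re hsa fun η => ?_
    rw [sub_apply, inner_sub_right, Complex.sub_re, re_inner_algebraMap]
    linarith [ha η]
  have hp' := (cfc_nonneg_iff _ S).1 hp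
  have e : cfc (fun x : ℝ => (x - a) - (m - a) * stp m x) S
      = (S - algebraMap ℝ _ a) - (m - a) • up S m := by
    rw [cfc_sub _ _ S, e1, cfc_const_mul _ _ S]
    rfl
  have h0 : 0 ≤ cfc (fun x : ℝ => (x - a) - (m - a) * stp m x) S := by
    refine cfc_nonneg fun x hx => ?_
    have := hp' x hx
    unfold stp
    split_ifs with h1
    · linarith
    · linarith
  have h4 := re_nonneg h0 ξ
  have h5 : (⟪ξ, up S m ξ⟫_ℂ).re = ‖up S m ξ‖ ^ 2 := by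
    rw [← re_inner_adjoint, ← star_eq_adjoint, (up_selfAdjoint S m).star_eq]
    change _ = (⟪ξ, (up S m * up S m) ξ⟫_ℂ).re
    rw [h.up_mul hS hr]
  rw [e, sub_apply, inner_sub_right, Complex.sub_re, sub_apply, inner_sub_right, Complex.sub_re,
    re_inner_algebraMap, smul_apply, ← Complex.coe_smul, inner_smul_right, Complex.re_ofReal_mul,
    h5] at h4
  linarith

theorem abs_re_inner_le (A : E →L[ℂ] E) (ξ : E) : |(⟪ξ, A ξ⟫_ℂ).re| ≤ ‖A‖ * ‖ξ‖ ^ 2 := by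
  calc |(⟪ξ, A ξ⟫_ℂ).re| ≤ ‖⟪ξ, A ξ⟫_ℂ‖ := Complex.abs_re_le_norm _
    _ ≤ ‖ξ‖ * ‖A ξ‖ := norm_inner_le_norm _ _
    _ ≤ ‖ξ‖ * (‖A‖ * ‖ξ‖) := by gcongr; exact A.le_opNorm _
    _ = ‖A‖ * ‖ξ‖ ^ 2 := by ring

theorem norm_adjoint_comp_sub (A B : E →L[ℂ] F) {a δ : ℝ} (hA : ‖A‖ ≤ a) (hB : ‖B‖ ≤ a)
    (h : ‖A - B‖ ≤ δ) : ‖adjoint A ∘L A - adjoint B ∘L B‖ ≤ 2 * a * δ := by
  have e : adjoint A ∘L A - adjoint B ∘L B = adjoint (A - B) ∘L A + adjoint B ∘L (A - B) := by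
    rw [map_sub, sub_comp, comp_sub]; abel
  have ha : 0 ≤ a := (norm_nonneg _).trans hA
  have hδ : 0 ≤ δ := (norm_nonneg _).trans h
  rw [e]
  calc _ ≤ ‖adjoint (A - B) ∘L A‖ + ‖adjoint B ∘L (A - B)‖ := norm_add_le _ _
    _ ≤ ‖adjoint (A - B)‖ * ‖A‖ + ‖adjoint B‖ * ‖A - B‖ :=
        add_le_add (opNorm_comp_le _ _) (opNorm_comp_le _ _)
    _ ≤ δ * a + a * δ := by
        rw [LinearIsometryEquiv.norm_map, LinearIsometryEquiv.norm_map]
        gcongr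
    _ = 2 * a * δ := by ring

theorem exists_lt_normSq (A : E →L[ℂ] F) {c : ℝ} (hc : 0 ≤ c) (h : c < ‖A‖ ^ 2) :
    ∃ ξ, c * ‖ξ‖ ^ 2 < ‖A ξ‖ ^ 2 := by
  by_contra hn
  push Not at hn
  have : ‖A‖ ≤ √c := by
    refine opNorm_le_bound _ (Real.sqrt_nonneg _) fun ξ => ?_
    refine (pow_le_pow_iff_left₀ (norm_nonneg _) (by positivity) two_ne_zero).1 ?_
    rw [mul_pow, Real.sq_sqrt hc]
    exact hn ξ
  have h2 := pow_le_pow_left₀ (norm_nonneg _) this 2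
  rw [Real.sq_sqrt hc] at h2
  linarith

variable {G : Type} [Group G]

theorem exists_proj_markov {T : L2 G →L[ℂ] L2 G} (hT : T ∈ redAlg G) (hsa : IsSelfAdjoint T)
    {m r a : ℝ} (hr : 0 < r) (hg : Gap T m r) {ξ : L2 G}
    (hξ : (m - r) * ‖ξ‖ ^ 2 < (⟪ξ, T ξ⟫_ℂ).re) (ha : ∀ η, a * ‖η‖ ^ 2 ≤ (⟪η, T η⟫_ℂ).re)
    (h1 : 2 * ((ent T 1 1).re - a) < m - a) :
    ∃ e ∈ reducedGroupCStar G, e * e = e ∧ star e = e ∧ 0 < (canonicalTrace G e).re ∧
      (canonicalTrace G e).re < 1 / 2 := by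
  have hm := up_mem isClosed_redAlg hT m
  have he1 := hg.up_mul hsa hr
  have he2 := (up_selfAdjoint T m).star_eq
  refine ⟨up T m, hm, he1, he2, ?_, ?_⟩
  · rw [trace_proj he1 he2]
    have : up T m (dl 1) ≠ 0 := fun h => hg.up_ne_zero' hsa hr hξ (eq_zero_of_dl_one hm h)
    exact pow_pos (norm_pos_iff.2 this) 2
  · rw [trace_proj he1 he2]
    have h2 := hg.markov hsa hr ha (dl 1)
    have h3 := ha (dl 1)
    rw [norm_dl, ← ent_eq_inner] at h2 h3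
    by_contra h5
    have h6 := mul_le_mul_of_nonneg_left (not_lt.1 h5) (show 0 ≤ m - a by linarith)
    linarith

theorem ent_mul_right {T : L2 G →L[ℂ] L2 G} (hT : T ∈ redAlg G) (g a k : G) :
    ent T (g * k) (a * k) = ent T g a := by
  have h1 : dl (a * k) = rho k⁻¹ (dl a) := by rw [rho_dl, inv_inv]
  unfold ent
  rw [h1, ← mul_apply_eq_comp, (commute_rho hT k⁻¹).eq, mul_apply_eq_comp, rho_apply,
    mul_inv_cancel_right]

end Crest.Agent.R129S
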