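import Mathlib

/-!
# R129S: spectral gaps as an inequality, the upper spectral projection
-/

set_option autoImplicit false
set_option linter.unusedSectionVars false

noncomputable section

namespace Crest.Agent.R129S

open scoped InnerProductSpace ComplexConjugate
open ContinuousLinearMap

variable {E F : Type} [NormedAddCommGroup E] [InnerProductSpace ℂ E]
  [NormedAddCommGroup F] [InnerProductSpace ℂ F]

/-- the spectrum of `S` misses `(m - r, m + r)` -/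
def Gap (S : E →L[ℂ] E) (m r : ℝ) : Prop := ∀ ξ, r * ‖ξ‖ ≤ ‖S ξ - (m : ℂ) • ξ‖

theorem Gap.mono {S : E →L[ℂ] E} {m r r' : ℝ} (h : Gap S m r) (hr : r' ≤ r) : Gap S m r' :=
  fun ξ => (mul_le_mul_of_nonneg_right hr (norm_nonneg _)).trans (h ξ)

theorem Gap.perturb {S S' : E →L[ℂ] E} {m r δ : ℝ} (h : Gap S m r) (hδ : ‖S' - S‖ ≤ δ) :
    Gap S' m (r - δ) := by
  intro ξ
  have h1 := h ξ
  have h2 : ‖(S' - S) ξ‖ ≤ δ * ‖ξ‖ := (S' - S).le_of_opNorm_le hδ ξ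
  have h3 : S ξ - (m : ℂ) • ξ = (S' ξ - (m : ℂ) • ξ) - (S' - S) ξ := by
    simp only [sub_apply]; abel
  have h4 := norm_sub_le (S' ξ - (m : ℂ) • ξ) ((S' - S) ξ)
  rw [← h3] at h4
  linarith

theorem Gap.add_const {S : E →L[ℂ] E} {m r : ℝ} (h : Gap S m r) (c : ℝ) :
    Gap (S + (c : ℂ) • 1) (m + c) r := by
  intro ξ
  have := h ξ
  convert this using 2
  simp only [add_apply, smul_apply,
    one_apply_eq_self, Complex.ofReal_add, add_smul]
  abel

theorem Gap.smul {S : E →L[ℂ] E} {m r : ℝ} (h : Gap S m r) {c : ℝ} (hc : 0 ≤ c) :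
    Gap ((c : ℂ) • S) (c * m) (c * r) := by
  intro ξ
  have h1 := mul_le_mul_of_nonneg_left (h ξ) hc
  have e : ((c : ℂ) • S) ξ - ((c * m : ℝ) : ℂ) • ξ = (c : ℂ) • (S ξ - (m : ℂ) • ξ) := by
    simp only [smul_apply, Complex.ofReal_mul, smul_sub, mul_smul]
  rw [e, norm_smul, Complex.norm_real, Real.norm_of_nonneg hc, mul_assoc]
  exact h1

/-- the gap passes to an invariant subspace -/
theorem Gap.of_isometry {S : E →L[ℂ] E} {S' : F →L[ℂ] F} {m r : ℝ} (h : Gap S m r)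
    (J : F →L[ℂ] E) (hJ : ∀ ξ, ‖J ξ‖ = ‖ξ‖) (hc : ∀ ξ, S (J ξ) = J (S' ξ)) : Gap S' m r := by
  intro ξ
  have := h (J ξ)
  rwa [hc, ← map_smul, ← map_sub, hJ, hJ] at this

variable [CompleteSpace E] [CompleteSpace F]

theorem nonneg_of_re {A : E →L[ℂ] E} (hA : IsSelfAdjoint A) (h : ∀ ξ, 0 ≤ (⟪ξ, A ξ⟫_ℂ).re) :
    0 ≤ A := by
  rw [nonneg_iff_isPositive, isPositive_def']
  refine ⟨hA, fun ξ => ?_⟩
  rw [reApplyInnerSelf_apply, inner_re_symm]
  exact h ξ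

theorem re_nonneg {A : E →L[ℂ] E} (h : 0 ≤ A) (ξ : E) : 0 ≤ (⟪ξ, A ξ⟫_ℂ).re :=
  ((nonneg_iff_isPositive A).1 h).re_inner_nonneg_right ξ

theorem re_inner_self (ξ : E) : (⟪ξ, ξ⟫_ℂ).re = ‖ξ‖ ^ 2 := inner_self_eq_norm_sq (𝕜 := ℂ) ξ

theorem re_inner_adjoint (A : E →L[ℂ] F) (ξ : E) :
    (⟪ξ, (adjoint A ∘L A) ξ⟫_ℂ).re = ‖A ξ‖ ^ 2 := by
  rw [ContinuousLinearMap.comp_apply, adjoint_inner_right]
  exact inner_self_eq_norm_sq (𝕜 := ℂ) _

theorem Gap.spectrum {S : E →L[ℂ] E} {m r : ℝ} (h : Gap S m r) (hS : IsSelfAdjoint S)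
    (hr : 0 ≤ r) {x : ℝ} (hx : x ∈ spectrum ℝ S) : r ≤ |x - m| := by
  have hsa : IsSelfAdjoint (S - algebraMap ℝ _ m) :=
    hS.sub (IsSelfAdjoint.algebraMap _ (IsSelfAdjoint.all m))
  have e : cfc (fun x : ℝ => (x - m) * (x - m) - r ^ 2) S
      = (S - algebraMap ℝ _ m) * (S - algebraMap ℝ _ m) - algebraMap ℝ _ (r ^ 2) := by
    rw [cfc_sub _ _ S, cfc_mul _ _ S, cfc_sub _ _ S, cfc_const _ S, cfc_const _ S, cfc_id' ℝ S]
  have h0 : 0 ≤ cfc (fun x : ℝ => (x - m) * (x - m) - r ^ 2) S := by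
    refine nonneg_of_re (cfc_predicate _ _) fun ξ => ?_
    rw [e]
    have h1 : (S - algebraMap ℝ (E →L[ℂ] E) m) ξ = S ξ - (m : ℂ) • ξ := by
      rw [sub_apply, Algebra.algebraMap_eq_smul_one]
      simp
    have h2 : (⟪ξ, ((S - algebraMap ℝ (E →L[ℂ] E) m) * (S - algebraMap ℝ (E →L[ℂ] E) m)) ξ⟫_ℂ).re
        = ‖S ξ - (m : ℂ) • ξ‖ ^ 2 := by
      rw [← h1, ← re_inner_adjoint, ← star_eq_adjoint, hsa.star_eq]; rfl
    have h3 : (⟪ξ, (algebraMap ℝ (E →L[ℂ] E) (r ^ 2)) ξ⟫_ℂ).re = r ^ 2 * ‖ξ‖ ^ 2 := by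
      rw [Algebra.algebraMap_eq_smul_one, smul_apply,
        one_apply_eq_self, ← Complex.coe_smul, inner_smul_right, Complex.re_ofReal_mul,
        re_inner_self]
    rw [sub_apply, inner_sub_right, Complex.sub_re, h2, h3, ← mul_pow]
    have := pow_le_pow_left₀ (by positivity) (h ξ) 2
    linarith
  have := (cfc_nonneg_iff _ S).1 h0 x hx
  refine (abs_le_of_sq_le_sq' ?_ (abs_nonneg _)).2
  rw [sq_abs]; nlinarith

theorem gap_of_spectrum {S : E →L[ℂ] E} {m r : ℝ} (hS : IsSelfAdjoint S)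
    (hr : 0 ≤ r) (h : ∀ x ∈ spectrum ℝ S, r ≤ |x - m|) : Gap S m r := by
  have hsa : IsSelfAdjoint (S - algebraMap ℝ _ m) :=
    hS.sub (IsSelfAdjoint.algebraMap _ (IsSelfAdjoint.all m))
  have e : cfc (fun x : ℝ => (x - m) * (x - m) - r ^ 2) S
      = (S - algebraMap ℝ _ m) * (S - algebraMap ℝ _ m) - algebraMap ℝ _ (r ^ 2) := by
    rw [cfc_sub _ _ S, cfc_mul _ _ S, cfc_sub _ _ S, cfc_const _ S, cfc_const _ S, cfc_id' ℝ S]
  have h0 : 0 ≤ cfc (fun x : ℝ => (x - m) * (x - m) - r ^ 2) S := by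
    refine cfc_nonneg fun x hx => ?_
    have := pow_le_pow_left₀ hr (h x hx) 2
    rw [sq_abs] at this
    nlinarith
  intro ξ
  have h4 := re_nonneg h0 ξ
  rw [e] at h4
  have h1 : (S - algebraMap ℝ (E →L[ℂ] E) m) ξ = S ξ - (m : ℂ) • ξ := by
    rw [sub_apply, Algebra.algebraMap_eq_smul_one]
    simp
  have h2 : (⟪ξ, ((S - algebraMap ℝ (E →L[ℂ] E) m) * (S - algebraMap ℝ (E →L[ℂ] E) m)) ξ⟫_ℂ).re
      = ‖S ξ - (m : ℂ) • ξ‖ ^ 2 := by
    rw [← h1, ← re_inner_adjoint, ← star_eq_adjoint, hsa.star_eq]; rfl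
  have h3 : (⟪ξ, (algebraMap ℝ (E →L[ℂ] E) (r ^ 2)) ξ⟫_ℂ).re = r ^ 2 * ‖ξ‖ ^ 2 := by
    rw [Algebra.algebraMap_eq_smul_one, smul_apply,
      one_apply_eq_self, ← Complex.coe_smul, inner_smul_right, Complex.re_ofReal_mul,
      re_inner_self]
  rw [sub_apply, inner_sub_right, Complex.sub_re, h2, h3, ← mul_pow] at h4
  exact (pow_le_pow_iff_left₀ (by positivity) (norm_nonneg _) two_ne_zero).1 (by linarith)

/-- the step function -/
def stp (m : ℝ) (x : ℝ) : ℝ := if m ≤ x then 1 else 0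

/-- the spectral projection of `[m, ∞)` -/
def up (S : E →L[ℂ] E) (m : ℝ) : E →L[ℂ] E := cfc (stp m) S

section up

variable {S : E →L[ℂ] E} {m r : ℝ}

theorem Gap.continuousOn (h : Gap S m r) (hS : IsSelfAdjoint S) (hr : 0 < r) :
    ContinuousOn (stp m) (_root_.spectrum ℝ S) := by
  have hc : Continuous fun x : ℝ => max 0 (min 1 ((x - m) / r)) := by fun_prop
  refine hc.continuousOn.congr fun x hx => ?_
  have h1 := h.spectrum hS hr.le hx
  unfold stp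
  dsimp only
  split_ifs with h2
  · rw [abs_of_nonneg (by linarith)] at h1
    rw [min_eq_left ((one_le_div hr).2 h1), max_eq_right zero_le_one]
  · have : (x - m) / r ≤ 0 := div_nonpos_of_nonpos_of_nonneg (by linarith) hr.le
    rw [max_eq_left ((min_le_right _ _).trans this)]

theorem up_selfAdjoint (S : E →L[ℂ] E) (m : ℝ) : IsSelfAdjoint (up S m) := cfc_predicate _ _

theorem up_commute {A : E →L[ℂ] E} (h : Commute S A) (m : ℝ) : Commute (up S m) A :=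
  h.cfc_real _

theorem Gap.up_mul (h : Gap S m r) (hS : IsSelfAdjoint S) (hr : 0 < r) :
    up S m * up S m = up S m := by
  have hc := h.continuousOn hS hr
  unfold up
  rw [← cfc_mul _ _ S]
  refine cfc_congr fun x _ => ?_
  unfold stp; split_ifs <;> simp

theorem up_mem {A : StarSubalgebra ℂ (E →L[ℂ] E)} (hA : IsClosed (A : Set (E →L[ℂ] E)))
    (hS : S ∈ A) (m : ℝ) : up S m ∈ A :=
  cfc_mem (𝕜' := ℂ) (hs := hA) _ hS

/-- if the numerical range reaches above `m` the projection is not zero -/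
theorem Gap.up_ne_zero (h : Gap S m r) (hS : IsSelfAdjoint S) (hr : 0 < r) {ξ : E}
    (hξ : m * ‖ξ‖ ^ 2 < (⟪ξ, S ξ⟫_ℂ).re) : up S m ≠ 0 := by
  intro h0
  have hc := h.continuousOn hS hr
  have h1 : ∀ x ∈ _root_.spectrum ℝ S, x ≤ m := by
    intro x hx
    by_contra hlt
    have h2 : stp m x ∈ _root_.spectrum ℝ (up S m) := by
      unfold up
      rw [cfc_map_spectrum _ S]
      exact ⟨x, hx, rfl⟩
    rw [h0] at h2
    have h3 : stp m x = 1 := if_pos (by linarith)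
    rw [h3, spectrum.mem_iff] at h2
    exact h2 (by simp)
  have h2 : S ≤ algebraMap ℝ _ m := le_algebraMap_of_spectrum_le h1 hS
  have h3 := re_nonneg (sub_nonneg.2 h2) ξ
  rw [sub_apply, inner_sub_right, Complex.sub_re,
    Algebra.algebraMap_eq_smul_one, smul_apply,
    one_apply_eq_self, ← Complex.coe_smul, inner_smul_right, Complex.re_ofReal_mul,
    re_inner_self] at h3
  linarith

/-- Chebyshev bound -/
theorem Gap.norm_up_le (h : Gap S m r) (hS : IsSelfAdjoint S) (hr : 0 < r) {c : ℝ} (hc : c ≤ m)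
    (ξ : E) : (m - c) * ‖up S m ξ‖ ≤ ‖S ξ - (c : ℂ) • ξ‖ := by
  have hcont := h.continuousOn hS hr
  have hsa : IsSelfAdjoint (S - algebraMap ℝ _ c) :=
    hS.sub (IsSelfAdjoint.algebraMap _ (IsSelfAdjoint.all c))
  have e : cfc (fun x : ℝ => (x - c) * (x - c) - (m - c) ^ 2 * stp m x) S
      = (S - algebraMap ℝ _ c) * (S - algebraMap ℝ _ c) - (m - c) ^ 2 • up S m := by
    rw [cfc_sub _ _ S, cfc_mul _ _ S, cfc_sub _ _ S, cfc_const _ S, cfc_id' ℝ S,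
      cfc_const_mul _ _ S]
    rfl
  have h0 : 0 ≤ cfc (fun x : ℝ => (x - c) * (x - c) - (m - c) ^ 2 * stp m x) S := by
    refine cfc_nonneg fun x _ => ?_
    unfold stp
    split_ifs with h1
    · nlinarith
    · nlinarith [mul_self_nonneg (x - c)]
  have h4 := re_nonneg h0 ξ
  rw [e] at h4
  have h1 : (S - algebraMap ℝ (E →L[ℂ] E) c) ξ = S ξ - (c : ℂ) • ξ := by
    rw [sub_apply, Algebra.algebraMap_eq_smul_one]
    simp
  have h2 : (⟪ξ, ((S - algebraMap ℝ (E →L[ℂ] E) c) * (S - algebraMap ℝ (E →L[ℂ] E) c)) ξ⟫_ℂ).re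
      = ‖S ξ - (c : ℂ) • ξ‖ ^ 2 := by
    rw [← h1, ← re_inner_adjoint, ← star_eq_adjoint, hsa.star_eq]; rfl
  have h5 : (⟪ξ, up S m ξ⟫_ℂ).re = ‖up S m ξ‖ ^ 2 := by
    rw [← re_inner_adjoint, ← star_eq_adjoint, (up_selfAdjoint S m).star_eq]
    change _ = (⟪ξ, (up S m * up S m) ξ⟫_ℂ).re
    rw [h.up_mul hS hr]
  have h3 : (⟪ξ, ((m - c) ^ 2 • up S m) ξ⟫_ℂ).re = (m - c) ^ 2 * ‖up S m ξ‖ ^ 2 := by
    rw [smul_apply, ← Complex.coe_smul, inner_smul_right,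
      Complex.re_ofReal_mul, h5]
  rw [sub_apply, inner_sub_right, Complex.sub_re, h2, h3, ← mul_pow] at h4
  have hmc : 0 ≤ m - c := by linarith
  exact (pow_le_pow_iff_left₀ (by positivity) (norm_nonneg _) two_ne_zero).1 (by linarith)

end up

/-- approximate projections -/
theorem approx_proj {S : E →L[ℂ] E} (hS : IsSelfAdjoint S) {δ : ℝ} (hδ : δ ≤ 1 / 8)
    (h : ‖S * S - S‖ ≤ δ) : Gap S (1 / 2) (1 / 4) ∧ ‖up S (1 / 2) - S‖ ≤ 2 * δ := by
  have hδ0 : 0 ≤ δ := (norm_nonneg _).trans h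
  have h1 : ∀ x ∈ spectrum ℝ S, |x * x - x| ≤ δ := by
    intro x hx
    have e : cfc (fun x : ℝ => x * x - x) S = S * S - S := by
      rw [cfc_sub _ _ S, cfc_mul _ _ S, cfc_id' ℝ S]
    have := norm_apply_le_norm_cfc (fun x : ℝ => x * x - x) S hx
    rw [e] at this
    exact this.trans h
  have hg : Gap S (1 / 2) (1 / 4) := by
    refine gap_of_spectrum hS (by norm_num) fun x hx => ?_
    have h2 := (abs_le.1 (h1 x hx)).1
    refine (abs_le_of_sq_le_sq' ?_ (abs_nonneg _)).2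
    rw [sq_abs]; nlinarith
  refine ⟨hg, ?_⟩
  have hc := hg.continuousOn hS (by norm_num)
  have e : up S (1 / 2) - S = cfc (fun x : ℝ => stp (1 / 2) x - x) S := by
    rw [cfc_sub _ _ S, cfc_id' ℝ S]; rfl
  rw [e]
  refine norm_cfc_le (by positivity) fun x hx => ?_
  have h2 := abs_le.1 (h1 x hx)
  rw [Real.norm_eq_abs, abs_le]
  unfold stp
  split_ifs with h3
  · constructor <;> nlinarith [h2.1, h2.2]
  · constructor <;> nlinarith [h2.1, h2.2]

end Crest.Agent.R129S
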