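import Crest.Agent.R129S.Ker
import Crest.Agent.R129S.Gap
import Crest.Prelude.Def_ReducedGroupCStar

/-!
# R129S: the reduced group C*-algebra as a closed star subalgebra; the trace of a gap projection
-/

set_option autoImplicit false
set_option linter.unusedSectionVars false

noncomputable section

namespace Crest.Agent.R129S

open scoped InnerProductSpace ComplexConjugate
open ContinuousLinearMap Crest.OperatorAlgebra

section Pull

variable {X Y : Type}

theorem sum_comp_le {f : Y → X} (hf : Function.Injective f) (η : L2 X) (s : Finset Y) :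
    ∑ y ∈ s, ‖η (f y)‖ ^ 2 ≤ ‖η‖ ^ 2 := by
  have := sum_normSq_le η (s.map ⟨f, hf⟩)
  rwa [Finset.sum_map] at this

/-- pull-back along an injection -/
def pull (f : Y → X) (hf : Function.Injective f) : L2 X →L[ℂ] L2 Y :=
  LinearMap.mkContinuous
    { toFun := fun η => mkL2 (fun y => η (f y)) (sum_comp_le hf η)
      map_add' := fun _ _ => rfl
      map_smul' := fun _ _ => rfl } 1
    (fun η => by
      rw [one_mul]
      exact norm_le_of_sum _ (norm_nonneg _) (sum_comp_le hf η))

theorem pull_apply (f : Y → X) (hf : Function.Injective f) (η : L2 X) (y : Y) :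
    pull f hf η y = η (f y) := rfl

theorem norm_pull_le (f : Y → X) (hf : Function.Injective f) : ‖pull f hf‖ ≤ 1 :=
  LinearMap.mkContinuous_norm_le _ zero_le_one _

theorem adjoint_pull_dl (f : Y → X) (hf : Function.Injective f) (y : Y) :
    adjoint (pull f hf) (dl y) = dl (f y) := by
  refine ext_inner_right ℂ fun η => ?_
  rw [adjoint_inner_left, inner_dl, inner_dl, pull_apply]

theorem pull_dl (f : Y → X) (hf : Function.Injective f) (y : Y) : pull f hf (dl (f y)) = dl y := by
  refine lp.ext (funext fun w => ?_)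
  rw [pull_apply]
  by_cases h : w = y
  · rw [h, dl_self, dl_self]
  · rw [dl_ne h, dl_ne fun h' => h (hf h')]

theorem pull_dl_of_not (f : Y → X) (hf : Function.Injective f) {x : X} (hx : ∀ w, f w ≠ x) :
    pull f hf (dl x) = 0 := by
  refine lp.ext (funext fun w => ?_)
  rw [pull_apply, dl_ne (hx w)]; rfl

theorem pull_comp_adjoint (f : Y → X) (hf : Function.Injective f) :
    pull f hf ∘L adjoint (pull f hf) = 1 :=
  ext_dl fun y => by rw [ContinuousLinearMap.comp_apply, adjoint_pull_dl, pull_dl]; rfl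

theorem norm_adjoint_pull (f : Y → X) (hf : Function.Injective f) (ξ : L2 Y) :
    ‖adjoint (pull f hf) ξ‖ = ‖ξ‖ := by
  have h := re_inner_adjoint (adjoint (pull f hf)) ξ
  rw [adjoint_adjoint, pull_comp_adjoint, one_apply_eq_self, re_inner_self] at h
  exact ((pow_left_inj₀ (norm_nonneg _) (norm_nonneg _) two_ne_zero).1 h).symm

end Pull

variable {G : Type} [Group G]

/-- left translation -/
def lam (g : G) : L2 G →L[ℂ] L2 G := pull (fun x => g⁻¹ * x) (mul_right_injective _)

/-- right translation -/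
def rho (g : G) : L2 G →L[ℂ] L2 G := pull (fun x => x * g) (mul_left_injective _)

theorem lam_apply (g : G) (ξ : L2 G) (x : G) : lam g ξ x = ξ (g⁻¹ * x) := rfl
theorem rho_apply (g : G) (ξ : L2 G) (x : G) : rho g ξ x = ξ (x * g) := rfl

theorem lam_dl (g x : G) : lam g (dl x) = dl (g * x) := by
  have := pull_dl (fun x => g⁻¹ * x) (mul_right_injective _) (g * x)
  simpa [lam] using this

theorem rho_dl (g x : G) : rho g (dl x) = dl (x * g⁻¹) := by
  have := pull_dl (fun x => x * g) (mul_left_injective _) (x * g⁻¹)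
  simpa [rho] using this

theorem lam_mul (g h : G) : lam (g * h) = lam g * lam h :=
  ext_dl fun x => by rw [mul_apply_eq_comp, lam_dl, lam_dl, lam_dl, mul_assoc]

theorem lam_one : lam (1 : G) = 1 := ext_dl fun x => by rw [lam_dl, one_mul]; rfl

theorem star_lam (g : G) : star (lam g) = lam g⁻¹ :=
  ext_dl fun x => by rw [star_eq_adjoint, lam, adjoint_pull_dl, lam_dl]

theorem star_rho (g : G) : star (rho g) = rho g⁻¹ :=
  ext_dl fun x => by rw [star_eq_adjoint, rho, adjoint_pull_dl, rho_dl, inv_inv]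

theorem commute_lam_rho (g h : G) : Commute (lam g) (rho h) :=
  ext_dl fun x => by
    rw [mul_apply_eq_comp, mul_apply_eq_comp, lam_dl, rho_dl, rho_dl, lam_dl, mul_assoc]

theorem mem_leftTranslations {T : L2 G →L[ℂ] L2 G} : T ∈ leftTranslations G ↔ ∃ g, T = lam g := by
  constructor
  · rintro ⟨g, hg⟩
    exact ⟨g, ContinuousLinearMap.ext fun f => lp.ext (funext fun x => hg f x)⟩
  · rintro ⟨g, rfl⟩
    exact ⟨g, fun _ _ => rfl⟩

variable (G) in
/-- the group algebra inside the bounded operators -/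
def grpAlg : StarSubalgebra ℂ (L2 G →L[ℂ] L2 G) where
  carrier := Submodule.span ℂ (leftTranslations G)
  mul_mem' := by
    intro a b ha hb
    have h : Submodule.span ℂ (leftTranslations G) * Submodule.span ℂ (leftTranslations G)
        ≤ Submodule.span ℂ (leftTranslations G) := by
      rw [Submodule.span_mul_span]
      refine Submodule.span_mono ?_
      rintro _ ⟨x, hx, y, hy, rfl⟩
      obtain ⟨g, rfl⟩ := mem_leftTranslations.1 hx
      obtain ⟨h, rfl⟩ := mem_leftTranslations.1 hy
      exact mem_leftTranslations.2 ⟨g * h, (lam_mul g h).symm⟩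
    exact h (Submodule.mul_mem_mul ha hb)
  add_mem' := fun ha hb => Submodule.add_mem _ ha hb
  algebraMap_mem' := fun c => by
    rw [Algebra.algebraMap_eq_smul_one]
    exact Submodule.smul_mem _ _
      (Submodule.subset_span (mem_leftTranslations.2 ⟨1, lam_one.symm⟩))
  star_mem' := by
    intro a ha
    induction ha using Submodule.span_induction with
    | mem x hx =>
      obtain ⟨g, rfl⟩ := mem_leftTranslations.1 hx
      exact Submodule.subset_span (mem_leftTranslations.2 ⟨g⁻¹, star_lam g⟩)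
    | zero => rw [star_zero]; exact Submodule.zero_mem _
    | add x y _ _ hx hy => rw [star_add]; exact Submodule.add_mem _ hx hy
    | smul c x _ hx => rw [star_smul]; exact Submodule.smul_mem _ _ hx

theorem lam_mem_grpAlg (g : G) : lam g ∈ grpAlg G :=
  Submodule.subset_span (mem_leftTranslations.2 ⟨g, rfl⟩)

variable (G) in
/-- the reduced group C*-algebra -/
def redAlg : StarSubalgebra ℂ (L2 G →L[ℂ] L2 G) := (grpAlg G).topologicalClosure

theorem mem_redAlg {T : L2 G →L[ℂ] L2 G} : T ∈ redAlg G ↔ T ∈ reducedGroupCStar G := Iff.rfl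

theorem isClosed_redAlg : IsClosed (redAlg G : Set (L2 G →L[ℂ] L2 G)) :=
  StarSubalgebra.isClosed_topologicalClosure _

theorem lam_mem (g : G) : lam g ∈ redAlg G :=
  StarSubalgebra.le_topologicalClosure _ (lam_mem_grpAlg g)

theorem commute_rho {T : L2 G →L[ℂ] L2 G} (hT : T ∈ redAlg G) (h : G) : Commute T (rho h) := by
  have hc : IsClosed {T : L2 G →L[ℂ] L2 G | T * rho h = rho h * T} :=
    isClosed_eq (by fun_prop) (by fun_prop)
  refine closure_minimal (fun a ha => ?_) hc hT
  induction ha using Submodule.span_induction with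
  | mem x hx =>
    obtain ⟨g, rfl⟩ := mem_leftTranslations.1 hx
    exact commute_lam_rho g h
  | zero => exact Commute.zero_left _
  | add x y _ _ hx hy => exact Commute.add_left hx hy
  | smul c x _ hx => exact Commute.smul_left hx c

theorem deltaOne_eq : deltaOne G = dl 1 := rfl

theorem trace_eq (T : L2 G →L[ℂ] L2 G) : canonicalTrace G T = ent T 1 1 :=
  (ent_eq_inner T 1 1).symm

theorem trace_proj {e : L2 G →L[ℂ] L2 G} (h1 : e * e = e) (h2 : star e = e) :
    (canonicalTrace G e).re = ‖e (dl 1)‖ ^ 2 := by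
  rw [← re_inner_adjoint, ← star_eq_adjoint, h2]
  change _ = (⟪dl 1, (e * e) (dl 1)⟫_ℂ).re
  rw [h1]; rfl

theorem eq_zero_of_dl_one {T : L2 G →L[ℂ] L2 G} (hT : T ∈ redAlg G) (h : T (dl 1) = 0) : T = 0 :=
  ext_dl fun x => by
    have h1 : dl x = rho x⁻¹ (dl 1) := by rw [rho_dl, inv_inv, one_mul]
    rw [h1, ← mul_apply_eq_comp, (commute_rho hT x⁻¹).eq, mul_apply_eq_comp, h, map_zero]
    rfl

/-- the projection of the upper part of the spectrum -/
theorem exists_proj_lt_half {T : L2 G →L[ℂ] L2 G} (hT : T ∈ redAlg G) (hsa : IsSelfAdjoint T)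
    {m r c : ℝ} (hr : 0 < r) (hg : Gap T m r) {ξ : L2 G} (hξ : m * ‖ξ‖ ^ 2 < (⟪ξ, T ξ⟫_ℂ).re)
    (hc : c < m) (h1 : 2 * ‖T (dl 1) - (c : ℂ) • dl 1‖ ^ 2 < (m - c) ^ 2) :
    ∃ e ∈ reducedGroupCStar G, e * e = e ∧ star e = e ∧ 0 < (canonicalTrace G e).re ∧
      (canonicalTrace G e).re < 1 / 2 := by
  have hm := up_mem isClosed_redAlg hT m
  have he1 := hg.up_mul hsa hr
  have he2 := (up_selfAdjoint T m).star_eq
  refine ⟨up T m, hm, he1, he2, ?_, ?_⟩
  · rw [trace_proj he1 he2]
    have : up T m (dl 1) ≠ 0 := fun h => hg.up_ne_zero hsa hr hξ (eq_zero_of_dl_one hm h)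
    exact pow_pos (norm_pos_iff.2 this) 2
  · rw [trace_proj he1 he2]
    have h2 := hg.norm_up_le hsa hr hc.le (dl 1)
    have h3 : 0 < m - c := by linarith
    have h4 := pow_le_pow_left₀ (by positivity) h2 2
    rw [mul_pow] at h4
    by_contra h5
    have h6 := mul_le_mul_of_nonneg_left (not_lt.1 h5) (sq_nonneg (m - c))
    linarith

end Crest.Agent.R129S
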