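import Mathlib

/-!
# R129S: operators on `ℓ²` given by their matrix entries, Schur test
-/

set_option autoImplicit false

noncomputable section

namespace Crest.Agent.R129S

open scoped InnerProductSpace ComplexConjugate ENNReal
open ContinuousLinearMap

/-- the Hilbert space `ℓ²(X)` -/
abbrev L2 (X : Type) : Type := lp (fun _ : X => ℂ) 2

variable {X Y Z : Type}

open Classical in
/-- basis vectors -/
def dl (x : X) : L2 X := lp.single 2 x 1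

open Classical in
theorem dl_apply (x w : X) : dl x w = if w = x then 1 else 0 := by
  rw [dl, lp.single_apply, Pi.single_apply]

theorem dl_self (x : X) : dl x x = 1 := by rw [dl_apply, if_pos rfl]

theorem dl_ne {x w : X} (h : w ≠ x) : dl x w = 0 := by rw [dl_apply, if_neg h]

theorem inner_dl (x : X) (η : L2 X) : ⟪dl x, η⟫_ℂ = η x := by
  classical
  rw [dl, lp.inner_single_left]; simp

theorem inner_dl_right (x : X) (η : L2 X) : ⟪η, dl x⟫_ℂ = conj (η x) := by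
  rw [← inner_conj_symm, inner_dl]

theorem norm_dl (x : X) : ‖dl x‖ = 1 := by
  classical
  rw [dl, lp.norm_single (by norm_num)]; simp

theorem hasSum_normSq (ξ : L2 X) : HasSum (fun x => ‖ξ x‖ ^ 2) (‖ξ‖ ^ 2) := by
  have h := lp.hasSum_norm (p := 2) (by norm_num) ξ
  simpa using h

theorem sum_normSq_le (ξ : L2 X) (s : Finset X) : ∑ x ∈ s, ‖ξ x‖ ^ 2 ≤ ‖ξ‖ ^ 2 :=
  sum_le_hasSum s (fun _ _ => sq_nonneg _) (hasSum_normSq ξ)

theorem hasSum_inner (ξ η : L2 X) : HasSum (fun x => conj (ξ x) * η x) ⟪ξ, η⟫_ℂ := by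
  have h := lp.hasSum_inner (𝕜 := ℂ) ξ η
  simpa only [RCLike.inner_apply'] using h

/-- a function with bounded partial sums of squares -/
def mkL2 (f : X → ℂ) {C : ℝ} (h : ∀ s : Finset X, ∑ x ∈ s, ‖f x‖ ^ 2 ≤ C) : L2 X :=
  ⟨f, memℓp_gen' (C := C) (by simpa using h)⟩

@[simp] theorem mkL2_apply (f : X → ℂ) {C : ℝ} (h : ∀ s : Finset X, ∑ x ∈ s, ‖f x‖ ^ 2 ≤ C)
    (x : X) : mkL2 f h x = f x := rfl

theorem norm_le_of_sum (ξ : L2 X) {C : ℝ} (hC : 0 ≤ C)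
    (h : ∀ s : Finset X, ∑ x ∈ s, ‖ξ x‖ ^ 2 ≤ C ^ 2) : ‖ξ‖ ≤ C :=
  (pow_le_pow_iff_left₀ (norm_nonneg _) hC two_ne_zero).1
    (hasSum_le_of_sum_le (hasSum_normSq ξ) h)

theorem ext_dl {E : Type} [NormedAddCommGroup E] [NormedSpace ℂ E] [CompleteSpace E]
    {S T : L2 X →L[ℂ] E} (h : ∀ x, S (dl x) = T (dl x)) : S = T := by
  classical
  refine lp.ext_continuousLinearMap (by norm_num) fun z => ?_
  ext1
  exact h z

theorem hasSum_dl (ξ : L2 X) : HasSum (fun x => ξ x • dl x) ξ := by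
  classical
  have h := lp.hasSum_single (p := 2) (by norm_num) ξ
  convert h using 2 with x
  ext w
  rw [lp.coeFn_smul, Pi.smul_apply, dl_apply, lp.single_apply, Pi.single_apply]
  split_ifs <;> simp

/-- matrix entries -/
def ent (T : L2 X →L[ℂ] L2 Y) (y : Y) (x : X) : ℂ := T (dl x) y

theorem ent_eq_inner (T : L2 X →L[ℂ] L2 Y) (y : Y) (x : X) : ent T y x = ⟪dl y, T (dl x)⟫_ℂ :=
  (inner_dl _ _).symm

theorem ext_ent {S T : L2 X →L[ℂ] L2 Y} (h : ∀ y x, ent S y x = ent T y x) : S = T :=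
  ext_dl fun x => lp.ext (funext fun y => h y x)

theorem ent_adjoint (T : L2 X →L[ℂ] L2 Y) (x : X) (y : Y) :
    ent (adjoint T) x y = conj (ent T y x) := by
  rw [ent_eq_inner, adjoint_inner_right, inner_dl_right, ent]

theorem ent_add (S T : L2 X →L[ℂ] L2 Y) (y : Y) (x : X) :
    ent (S + T) y x = ent S y x + ent T y x := rfl

theorem ent_sub (S T : L2 X →L[ℂ] L2 Y) (y : Y) (x : X) :
    ent (S - T) y x = ent S y x - ent T y x := rfl

theorem ent_smul (c : ℂ) (T : L2 X →L[ℂ] L2 Y) (y : Y) (x : X) :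
    ent (c • T) y x = c * ent T y x := rfl

theorem ent_zero (y : Y) (x : X) : ent (0 : L2 X →L[ℂ] L2 Y) y x = 0 := rfl

open Classical in
theorem ent_one (y x : X) : ent (1 : L2 X →L[ℂ] L2 X) y x = if y = x then 1 else 0 :=
  dl_apply x y

theorem ent_sum {ι : Type*} (s : Finset ι) (T : ι → L2 X →L[ℂ] L2 Y) (y : Y) (x : X) :
    ent (∑ i ∈ s, T i) y x = ∑ i ∈ s, ent (T i) y x := by
  classical
  induction s using Finset.induction_on with
  | empty => simp [ent_zero]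
  | insert a s ha ih => rw [Finset.sum_insert ha, Finset.sum_insert ha, ent_add, ih]

theorem hasSum_ent (T : L2 X →L[ℂ] L2 Y) (ξ : L2 X) (y : Y) :
    HasSum (fun x => ent T y x * ξ x) (T ξ y) := by
  have h := ((innerSL ℂ (dl y)) ∘L T).hasSum (hasSum_dl ξ)
  simp only [ContinuousLinearMap.comp_apply, innerSL_apply_apply, inner_dl, map_smul] at h
  have e : (fun x => ent T y x * ξ x) = fun x => ξ x • T (dl x) y := by
    funext x; rw [smul_eq_mul, mul_comm]; rfl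
  rw [e]; exact h

theorem hasSum_ent_comp (S : L2 Y →L[ℂ] L2 Z) (T : L2 X →L[ℂ] L2 Y) (z : Z) (x : X) :
    HasSum (fun y => ent S z y * ent T y x) (ent (S ∘L T) z x) :=
  hasSum_ent S (T (dl x)) z

/-- value of `T ξ` at a row with finite support -/
theorem apply_eq_sum (T : L2 X →L[ℂ] L2 Y) (ξ : L2 X) (y : Y) (s : Finset X)
    (h : ∀ x, x ∉ s → ent T y x * ξ x = 0) : T ξ y = ∑ x ∈ s, ent T y x * ξ x :=
  (hasSum_ent T ξ y).unique (hasSum_sum_of_ne_finset_zero h)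

theorem norm_ent_le (T : L2 X →L[ℂ] L2 Y) (y : Y) (x : X) : ‖ent T y x‖ ≤ ‖T‖ := by
  rw [ent_eq_inner]
  calc _ ≤ ‖dl y‖ * ‖T (dl x)‖ := norm_inner_le_norm _ _
    _ ≤ ‖dl y‖ * (‖T‖ * ‖dl x‖) := by gcongr; exact T.le_opNorm _
    _ = ‖T‖ := by rw [norm_dl, norm_dl, one_mul, mul_one]

section Schur

variable {K : Y → X → ℂ} {a b : ℝ}

theorem schur_row (hr : ∀ y (s : Finset X), ∑ x ∈ s, ‖K y x‖ ≤ a) (ξ : X → ℂ) (y : Y)
    (s : Finset X) : (∑ x ∈ s, ‖K y x * ξ x‖) ^ 2 ≤ a * ∑ x ∈ s, ‖K y x‖ * ‖ξ x‖ ^ 2 := by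
  have h := Finset.sum_sq_le_sum_mul_sum_of_sq_le_mul s (r := fun x => ‖K y x * ξ x‖)
    (f := fun x => ‖K y x‖) (g := fun x => ‖K y x‖ * ‖ξ x‖ ^ 2) (fun _ _ => norm_nonneg _)
    (fun _ _ => by positivity) (fun x _ => by rw [norm_mul]; exact le_of_eq (by ring))
  exact h.trans (mul_le_mul_of_nonneg_right (hr y s) (Finset.sum_nonneg fun _ _ => by positivity))

theorem schur_aux (hc : ∀ x (s : Finset Y), ∑ y ∈ s, ‖K y x‖ ≤ b) (ξ : L2 X) (t : Finset Y)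
    (s : Finset X) : ∑ y ∈ t, ∑ x ∈ s, ‖K y x‖ * ‖ξ x‖ ^ 2 ≤ b * ∑ x ∈ s, ‖ξ x‖ ^ 2 := by
  rw [Finset.sum_comm, Finset.mul_sum]
  refine Finset.sum_le_sum fun x _ => ?_
  rw [← Finset.sum_mul]
  exact mul_le_mul_of_nonneg_right (hc x t) (sq_nonneg _)

theorem schur_summable (ha : 0 ≤ a) (hb : 0 ≤ b) (hr : ∀ y (s : Finset X), ∑ x ∈ s, ‖K y x‖ ≤ a)
    (hc : ∀ x (s : Finset Y), ∑ y ∈ s, ‖K y x‖ ≤ b) (ξ : L2 X) (y : Y) :
    Summable fun x => ‖K y x * ξ x‖ := by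
  refine summable_of_sum_le (c := √(a * (b * ‖ξ‖ ^ 2))) (fun _ => norm_nonneg _) fun s => ?_
  refine Real.le_sqrt_of_sq_le ((schur_row hr ξ y s).trans (mul_le_mul_of_nonneg_left ?_ ha))
  have := schur_aux hc ξ {y} s
  rw [Finset.sum_singleton] at this
  exact this.trans (mul_le_mul_of_nonneg_left (sum_normSq_le ξ s) hb)

theorem schur_bound (ha : 0 ≤ a) (hb : 0 ≤ b) (hr : ∀ y (s : Finset X), ∑ x ∈ s, ‖K y x‖ ≤ a)
    (hc : ∀ x (s : Finset Y), ∑ y ∈ s, ‖K y x‖ ≤ b) (ξ : L2 X) (t : Finset Y) :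
    ∑ y ∈ t, ‖∑' x, K y x * ξ x‖ ^ 2 ≤ (√(a * b) * ‖ξ‖) ^ 2 := by
  have hlim : Filter.Tendsto (fun s : Finset X => ∑ y ∈ t, ‖∑ x ∈ s, K y x * ξ x‖ ^ 2)
      Filter.atTop (nhds (∑ y ∈ t, ‖∑' x, K y x * ξ x‖ ^ 2)) := by
    refine tendsto_finsetSum _ fun y _ => ?_
    have h : HasSum _ _ := (schur_summable ha hb hr hc ξ y).of_norm.hasSum
    exact (Filter.Tendsto.norm h).pow 2
  refine le_of_tendsto' hlim fun s => ?_
  rw [mul_pow, Real.sq_sqrt (mul_nonneg ha hb)]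
  calc ∑ y ∈ t, ‖∑ x ∈ s, K y x * ξ x‖ ^ 2
      ≤ ∑ y ∈ t, a * ∑ x ∈ s, ‖K y x‖ * ‖ξ x‖ ^ 2 := by
        refine Finset.sum_le_sum fun y _ => le_trans ?_ (schur_row hr ξ y s)
        exact pow_le_pow_left₀ (norm_nonneg _) (norm_sum_le _ _) 2
    _ ≤ a * (b * ∑ x ∈ s, ‖ξ x‖ ^ 2) := by
        rw [← Finset.mul_sum]
        exact mul_le_mul_of_nonneg_left (schur_aux hc ξ t s) ha
    _ ≤ a * (b * ‖ξ‖ ^ 2) := by gcongr; exact sum_normSq_le ξ s
    _ = a * b * ‖ξ‖ ^ 2 := by ring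

/-- **Schur test**, existence -/
theorem exists_of_schur (ha : 0 ≤ a) (hb : 0 ≤ b)
    (hr : ∀ y (s : Finset X), ∑ x ∈ s, ‖K y x‖ ≤ a)
    (hc : ∀ x (s : Finset Y), ∑ y ∈ s, ‖K y x‖ ≤ b) :
    ∃ T : L2 X →L[ℂ] L2 Y, (∀ y x, ent T y x = K y x) ∧ ‖T‖ ≤ √(a * b) := by
  let L : L2 X →ₗ[ℂ] L2 Y :=
    { toFun := fun ξ => mkL2 (fun y => ∑' x, K y x * ξ x) (schur_bound ha hb hr hc ξ)
      map_add' := fun ξ η => lp.ext (funext fun y => by
        change ∑' x, K y x * (ξ x + η x) = ∑' x, K y x * ξ x + ∑' x, K y x * η x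
        rw [← (schur_summable ha hb hr hc ξ y).of_norm.tsum_add
          (schur_summable ha hb hr hc η y).of_norm]
        simp only [mul_add])
      map_smul' := fun c ξ => lp.ext (funext fun y => by
        change ∑' x, K y x * (c * ξ x) = c * ∑' x, K y x * ξ x
        rw [← tsum_mul_left]
        simp only [mul_left_comm]) }
  have hL : ∀ ξ, ‖L ξ‖ ≤ √(a * b) * ‖ξ‖ := fun ξ =>
    norm_le_of_sum _ (by positivity) (schur_bound ha hb hr hc ξ)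
  refine ⟨L.mkContinuous _ hL, fun y x => ?_, LinearMap.mkContinuous_norm_le _ (by positivity) _⟩
  change ∑' w, K y w * dl x w = K y x
  rw [tsum_eq_single x fun w hw => by rw [dl_ne hw, mul_zero], dl_self, mul_one]

/-- **Schur test** -/
theorem norm_le_of_schur (T : L2 X →L[ℂ] L2 Y) (ha : 0 ≤ a) (hb : 0 ≤ b)
    (hr : ∀ y (s : Finset X), ∑ x ∈ s, ‖ent T y x‖ ≤ a)
    (hc : ∀ x (s : Finset Y), ∑ y ∈ s, ‖ent T y x‖ ≤ b) : ‖T‖ ≤ √(a * b) := by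
  obtain ⟨S, h1, h2⟩ := exists_of_schur ha hb hr hc
  rwa [ext_ent h1] at h2

end Schur

open Classical in
/-- the operator with a given kernel (zero if there is none) -/
def kop (K : Y → X → ℂ) : L2 X →L[ℂ] L2 Y :=
  if h : ∃ T : L2 X →L[ℂ] L2 Y, ∀ y x, ent T y x = K y x then h.choose else 0

/-- `K` is the matrix of a bounded operator -/
def Bd (K : Y → X → ℂ) : Prop := ∃ T : L2 X →L[ℂ] L2 Y, ∀ y x, ent T y x = K y x

theorem ent_kop {K : Y → X → ℂ} (h : Bd K) (y : Y) (x : X) : ent (kop K) y x = K y x := by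
  have h' : ∃ T : L2 X →L[ℂ] L2 Y, ∀ y x, ent T y x = K y x := h
  unfold kop
  rw [dif_pos h']
  exact h'.choose_spec y x

theorem kop_ent (T : L2 X →L[ℂ] L2 Y) : kop (ent T) = T :=
  ext_ent (ent_kop ⟨T, fun _ _ => rfl⟩)

theorem bd_of_schur {K : Y → X → ℂ} {a b : ℝ} (ha : 0 ≤ a) (hb : 0 ≤ b)
    (hr : ∀ y (s : Finset X), ∑ x ∈ s, ‖K y x‖ ≤ a)
    (hc : ∀ x (s : Finset Y), ∑ y ∈ s, ‖K y x‖ ≤ b) : Bd K ∧ ‖kop K‖ ≤ √(a * b) := by
  obtain ⟨T, h1, h2⟩ := exists_of_schur ha hb hr hc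
  have h : Bd K := ⟨T, h1⟩
  refine ⟨h, ?_⟩
  rwa [show kop K = T from ext_ent fun y x => by rw [ent_kop h, h1]]

/-- rows with at most `n` entries of size at most `c` -/
theorem sum_le_of_card {f : X → ℂ} {n : ℕ} {c : ℝ} (hc : 0 ≤ c) (h1 : ∀ x, ‖f x‖ ≤ c)
    (h2 : ∃ t : Finset X, t.card ≤ n ∧ ∀ x, f x ≠ 0 → x ∈ t) (s : Finset X) :
    ∑ x ∈ s, ‖f x‖ ≤ n * c := by
  classical
  obtain ⟨t, ht, h⟩ := h2
  calc ∑ x ∈ s, ‖f x‖ = ∑ x ∈ s ∩ t, ‖f x‖ := by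
        refine (Finset.sum_subset Finset.inter_subset_left fun x hx hx' => ?_).symm
        by_contra h0
        exact hx' (Finset.mem_inter.2 ⟨hx, h x fun h1 => h0 (by rw [h1, norm_zero])⟩)
    _ ≤ (s ∩ t).card • c := Finset.sum_le_card_nsmul _ _ _ fun x _ => h1 x
    _ ≤ n * c := by
        rw [nsmul_eq_mul]
        refine mul_le_mul_of_nonneg_right ?_ hc
        exact_mod_cast (Finset.card_le_card Finset.inter_subset_right).trans ht

end Crest.Agent.R129S
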